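import Mathlib

/-!
# P126 (duality conjecture for metric entropy): pairs at bounded homothetic distance

For an origin-symmetric convex body `K` in `ℝⁿ` and any set `L` with `t K ⊆ L ⊆ C t K`
(`t > 0`, `C ≥ 1`), the covering numbers satisfy

  `N(L°, 3C K°) ≤ N(K, L) ≤ N(L°, (3C)⁻¹ K°)`.

So on the class of pairs at homothetic distance at most `C` the duality inequalities of the
problem hold with `a = 3C` and `b = 1`; for homothetic pairs `L = t K` this is `a = 3`, `b = 1`.
The proof is a volume comparison (covering and packing bounds for homothets of one body).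
-/

set_option linter.unusedSectionVars false

namespace Vale.Agent.Results.P126.BoundedDistortion

section Basic


open Set Pointwise MeasureTheory

variable {E : Type*} [NormedAddCommGroup E] [InnerProductSpace ℝ E]

/-- `HasCover A B m`: the set `A` is contained in a union of `m` translates `x + B`. -/
def HasCover (A B : Set E) (m : ℕ) : Prop :=
  ∃ T : Finset E, T.card = m ∧ A ⊆ ⋃ x ∈ T, (x +ᵥ B)

/-- The covering number `N(A,B)`: the least number of translates of `B` whose union contains `A`. -/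
noncomputable def covNum (A B : Set E) : ℕ := sInf {m : ℕ | HasCover A B m}

/-- The polar set `K° = {y : ⟪x, y⟫ ≤ 1 for all x ∈ K}`. -/
def polar (K : Set E) : Set E := {y | ∀ x ∈ K, inner ℝ x y ≤ 1}

/-- An origin-symmetric convex body: compact, convex, nonempty interior, `K = -K`. -/
structure IsSymBody (K : Set E) : Prop where
  compact : IsCompact K
  convex : Convex ℝ K
  inter : (interior K).Nonempty
  symm : ∀ x ∈ K, -x ∈ K

theorem covNum_le {A B : Set E} {m : ℕ} (h : HasCover A B m) : covNum A B ≤ m :=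
  Nat.sInf_le h

theorem hasCover_covNum {A B : Set E} {m : ℕ} (h : HasCover A B m) : HasCover A B (covNum A B) :=
  Nat.sInf_mem (s := {m : ℕ | HasCover A B m}) ⟨m, h⟩

theorem HasCover.mono {A A' B B' : Set E} {m : ℕ} (h : HasCover A' B m) (hA : A ⊆ A')
    (hB : B ⊆ B') : HasCover A B' m := by
  obtain ⟨T, hT, hcov⟩ := h
  refine ⟨T, hT, fun y hy => ?_⟩
  have := hcov (hA hy)
  simp only [mem_iUnion, exists_prop] at this ⊢
  obtain ⟨x, hx, hyx⟩ := this
  exact ⟨x, hx, Set.vadd_set_mono hB hyx⟩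

theorem covNum_mono {A A' B B' : Set E} {m : ℕ} (h : HasCover A' B m) (hA : A ⊆ A')
    (hB : B ⊆ B') : covNum A B' ≤ covNum A' B :=
  covNum_le ((hasCover_covNum h).mono hA hB)

theorem one_le_covNum {A B : Set E} {m : ℕ} (h : HasCover A B m) (hA : A.Nonempty) :
    1 ≤ covNum A B := by
  obtain ⟨T, hT, hcov⟩ := hasCover_covNum h
  rcases Nat.eq_zero_or_pos (covNum A B) with h0 | h0
  · exfalso
    rw [h0, Finset.card_eq_zero] at hT
    obtain ⟨y, hy⟩ := hA
    have := hcov hy
    simp [hT] at this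
  · exact h0

theorem IsSymBody.zero_mem {K : Set E} (hK : IsSymBody K) : (0 : E) ∈ K := by
  obtain ⟨x, hx⟩ := hK.inter
  have hx' : x ∈ K := interior_subset hx
  have := hK.convex hx' (hK.symm x hx') (by norm_num : (0 : ℝ) ≤ 1 / 2)
    (by norm_num : (0 : ℝ) ≤ 1 / 2) (by norm_num)
  simpa using this

theorem IsSymBody.nonempty {K : Set E} (hK : IsSymBody K) : K.Nonempty := ⟨0, hK.zero_mem⟩

theorem IsSymBody.smul_subset_smul {K : Set E} (hK : IsSymBody K) {r s : ℝ} (hr : 0 ≤ r)
    (hrs : r ≤ s) : r • K ⊆ s • K := by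
  rintro _ ⟨x, hx, rfl⟩
  rcases eq_or_lt_of_le (hr.trans hrs) with hs | hs
  · have : r = 0 := le_antisymm (hs ▸ hrs) hr
    subst this
    rw [← hs]
    exact ⟨0, hK.zero_mem, by simp⟩
  · refine ⟨(r / s) • x, ?_, ?_⟩
    · exact hK.convex.smul_mem_of_zero_mem hK.zero_mem hx
        ⟨div_nonneg hr hs.le, (div_le_one hs).2 hrs⟩
    · simp only [smul_smul]
      congr 1
      field_simp

/-- Sums: `r K + s K ⊆ (r+s) K`. -/
theorem IsSymBody.add_mem {K : Set E} (hK : IsSymBody K) {r s : ℝ} (hr : 0 ≤ r) (hs : 0 ≤ s)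
    {x y : E} (hx : x ∈ r • K) (hy : y ∈ s • K) : x + y ∈ (r + s) • K := by
  rw [hK.convex.add_smul hr hs]
  exact Set.add_mem_add hx hy

theorem IsSymBody.neg_mem_smul {K : Set E} (hK : IsSymBody K) {r : ℝ} {x : E}
    (hx : x ∈ r • K) : -x ∈ r • K := by
  obtain ⟨k, hk, rfl⟩ := hx
  exact ⟨-k, hK.symm k hk, by simp⟩

/-- `r K ⊆ s K` gives a cover by one translate. -/
theorem hasCover_one {K : Set E} (hK : IsSymBody K) {r s : ℝ} (hr : 0 ≤ r) (hrs : r ≤ s) :
    HasCover (r • K) (s • K) 1 := by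
  refine ⟨{0}, by simp, fun y hy => ?_⟩
  simp only [Finset.mem_singleton, iUnion_iUnion_eq_left, zero_vadd]
  exact hK.smul_subset_smul hr hrs hy

end Basic

section Volume


open Set Pointwise MeasureTheory Module

variable {E : Type*} [NormedAddCommGroup E] [InnerProductSpace ℝ E] [FiniteDimensional ℝ E]
  [MeasurableSpace E] [BorelSpace E]

theorem IsSymBody.volume_pos {K : Set E} (hK : IsSymBody K) : 0 < (volume : Measure E) K := by
  obtain ⟨x, hx⟩ := hK.inter
  exact lt_of_lt_of_le (isOpen_interior.measure_pos volume ⟨x, hx⟩) (measure_mono interior_subset)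

theorem IsSymBody.volume_lt_top {K : Set E} (hK : IsSymBody K) : (volume : Measure E) K < ⊤ :=
  hK.compact.measure_lt_top

theorem volume_smul_body {K : Set E} {r : ℝ} (hr : 0 ≤ r) :
    (volume : Measure E) (r • K) = ENNReal.ofReal (r ^ finrank ℝ E) * (volume : Measure E) K :=
  Measure.addHaar_smul_of_nonneg volume hr K

/-- Lower volume bound: a cover of `r K` by `m` translates of `s K` needs `m ≥ (r/s)^d`. -/
theorem le_of_hasCover {K : Set E} (hK : IsSymBody K) {r s : ℝ} (hr : 0 ≤ r) (hs : 0 < s)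
    {m : ℕ} (h : HasCover (r • K) (s • K) m) : (r / s) ^ finrank ℝ E ≤ (m : ℝ) := by
  obtain ⟨T, hT, hcov⟩ := h
  have h1 : (volume : Measure E) (r • K) ≤ ∑ x ∈ T, (volume : Measure E) (x +ᵥ s • K) :=
    (measure_mono hcov).trans (measure_biUnion_finset_le T _)
  have h2 : ∀ x ∈ T, (volume : Measure E) (x +ᵥ s • K) =
      ENNReal.ofReal (s ^ finrank ℝ E) * (volume : Measure E) K := by
    intro x _
    rw [measure_vadd, volume_smul_body hs.le]
  rw [Finset.sum_congr rfl h2, Finset.sum_const, hT, volume_smul_body hr, nsmul_eq_mul,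
    ← mul_assoc] at h1
  have hpos := hK.volume_pos
  have hfin := hK.volume_lt_top
  have h3 : ENNReal.ofReal (r ^ finrank ℝ E) ≤ (m : ENNReal) * ENNReal.ofReal (s ^ finrank ℝ E) :=
    (ENNReal.mul_le_mul_iff_left hpos.ne' hfin.ne).1 h1
  have hsd : 0 < s ^ finrank ℝ E := pow_pos hs _
  have h4 : r ^ finrank ℝ E ≤ (m : ℝ) * s ^ finrank ℝ E := by
    have : (m : ENNReal) * ENNReal.ofReal (s ^ finrank ℝ E)
        = ENNReal.ofReal ((m : ℝ) * s ^ finrank ℝ E) := by
      rw [ENNReal.ofReal_mul (Nat.cast_nonneg m), ENNReal.ofReal_natCast]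
    rw [this] at h3
    exact (ENNReal.ofReal_le_ofReal_iff (by positivity)).1 h3
  rw [div_pow, div_le_iff₀ hsd]
  exact h4

end Volume

section Packing


open Set Pointwise MeasureTheory Module

variable {E : Type*} [NormedAddCommGroup E] [InnerProductSpace ℝ E] [FiniteDimensional ℝ E]
  [MeasurableSpace E] [BorelSpace E]

/-- A packing: a finite subset of `r K` whose translates of `(s/2) K` are pairwise disjoint. -/
def IsPacking (K : Set E) (r s : ℝ) (T : Finset E) : Prop :=
  (∀ x ∈ T, x ∈ r • K) ∧ (T : Set E).PairwiseDisjoint (fun x => x +ᵥ (s / 2) • K)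

theorem IsPacking.card_le {K : Set E} (hK : IsSymBody K) {r s : ℝ} (hr : 0 ≤ r) (hs : 0 < s)
    {T : Finset E} (hT : IsPacking K r s T) : (T.card : ℝ) ≤ (1 + 2 * r / s) ^ finrank ℝ E := by
  obtain ⟨hsub, hdisj⟩ := hT
  have hs2 : 0 < s / 2 := by positivity
  have hmeas : ∀ x ∈ T, MeasurableSet (x +ᵥ (s / 2) • K) := fun x _ =>
    ((hK.compact.smul (s / 2)).vadd x).measurableSet
  have h1 : (volume : Measure E) (⋃ x ∈ T, (x +ᵥ (s / 2) • K)) =
      ∑ x ∈ T, (volume : Measure E) (x +ᵥ (s / 2) • K) :=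
    measure_biUnion_finset hdisj hmeas
  have h2 : ∀ x ∈ T, (volume : Measure E) (x +ᵥ (s / 2) • K) =
      ENNReal.ofReal ((s / 2) ^ finrank ℝ E) * (volume : Measure E) K := by
    intro x _
    rw [measure_vadd, volume_smul_body hs2.le]
  rw [Finset.sum_congr rfl h2, Finset.sum_const, nsmul_eq_mul, ← mul_assoc] at h1
  have hsubset : (⋃ x ∈ T, (x +ᵥ (s / 2) • K)) ⊆ (r + s / 2) • K := by
    intro y hy
    simp only [mem_iUnion, exists_prop] at hy
    obtain ⟨x, hx, hyx⟩ := hy
    obtain ⟨k, hk, rfl⟩ := hyx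
    exact hK.add_mem hr hs2.le (hsub x hx) hk
  have h3 := measure_mono (μ := (volume : Measure E)) hsubset
  rw [h1, volume_smul_body (by positivity : (0 : ℝ) ≤ r + s / 2)] at h3
  have hpos := hK.volume_pos
  have hfin := hK.volume_lt_top
  have h4 : (T.card : ENNReal) * ENNReal.ofReal ((s / 2) ^ finrank ℝ E) ≤
      ENNReal.ofReal ((r + s / 2) ^ finrank ℝ E) :=
    (ENNReal.mul_le_mul_iff_left hpos.ne' hfin.ne).1 h3
  have hsd : 0 < (s / 2) ^ finrank ℝ E := pow_pos hs2 _
  have h5 : (T.card : ℝ) * (s / 2) ^ finrank ℝ E ≤ (r + s / 2) ^ finrank ℝ E := by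
    have : (T.card : ENNReal) * ENNReal.ofReal ((s / 2) ^ finrank ℝ E)
        = ENNReal.ofReal ((T.card : ℝ) * (s / 2) ^ finrank ℝ E) := by
      rw [ENNReal.ofReal_mul (Nat.cast_nonneg _), ENNReal.ofReal_natCast]
    rw [this] at h4
    exact (ENNReal.ofReal_le_ofReal_iff (by positivity)).1 h4
  have h6 : (1 + 2 * r / s) ^ finrank ℝ E = (r + s / 2) ^ finrank ℝ E / (s / 2) ^ finrank ℝ E := by
    rw [← div_pow]
    congr 1
    field_simp
    ring
  rw [h6, le_div_iff₀ hsd]
  exact h5

/-- A maximal packing is a cover. -/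
theorem hasCover_of_maximal {K : Set E} (hK : IsSymBody K) {r s : ℝ} (hs : 0 < s)
    {T : Finset E} (hT : IsPacking K r s T)
    (hmax : ∀ T' : Finset E, IsPacking K r s T' → T'.card ≤ T.card) :
    HasCover (r • K) (s • K) T.card := by
  classical
  have hs2 : 0 < s / 2 := by positivity
  refine ⟨T, rfl, fun y hy => ?_⟩
  simp only [mem_iUnion, exists_prop]
  by_cases hyT : y ∈ T
  · exact ⟨y, hyT, ⟨0, ⟨0, hK.zero_mem, by simp⟩, by simp⟩⟩
  · by_contra hcon
    push Not at hcon
    have hpack : IsPacking K r s (insert y T) := by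
      refine ⟨?_, ?_⟩
      · intro x hx
        rcases Finset.mem_insert.1 hx with rfl | hx
        · exact hy
        · exact hT.1 x hx
      · rw [Finset.coe_insert, Set.pairwiseDisjoint_insert]
        refine ⟨hT.2, ?_⟩
        intro x hx hne
        rw [Set.disjoint_left]
        rintro z ⟨k1, hk1, rfl⟩ ⟨k2, hk2, hz⟩
        apply hcon x hx
        refine ⟨k2 - k1, ?_, ?_⟩
        · have := hK.add_mem hs2.le hs2.le hk2 (hK.neg_mem_smul hk1)
          rw [add_halves] at this
          rw [sub_eq_add_neg]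
          exact this
        · simp only [vadd_eq_add] at hz ⊢
          rw [add_sub, hz]
          simp
    have := hmax _ hpack
    rw [Finset.card_insert_of_notMem hyT] at this
    omega

/-- Upper volume bound: `r K` can be covered by at most `(1 + 2r/s)^d` translates of `s K`. -/
theorem exists_hasCover {K : Set E} (hK : IsSymBody K) {r s : ℝ} (hr : 0 ≤ r) (hs : 0 < s) :
    ∃ m : ℕ, HasCover (r • K) (s • K) m ∧ (m : ℝ) ≤ (1 + 2 * r / s) ^ finrank ℝ E := by
  classical
  obtain ⟨B, hB⟩ := exists_nat_ge ((1 + 2 * r / s) ^ finrank ℝ E)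
  have hbound : ∀ T : Finset E, IsPacking K r s T → T.card ≤ B := by
    intro T hT
    have := (hT.card_le hK hr hs).trans hB
    exact_mod_cast this
  have hex : ∃ m : ℕ, ∃ T : Finset E, IsPacking K r s T ∧ T.card = m :=
    ⟨0, ∅, ⟨by simp, by simp⟩, by simp⟩
  -- pick a packing of maximal cardinality
  have hmaxex : ∃ T : Finset E, IsPacking K r s T ∧
      ∀ T' : Finset E, IsPacking K r s T' → T'.card ≤ T.card := by
    by_contra hcon
    push Not at hcon
    have : ∀ k : ℕ, ∃ T : Finset E, IsPacking K r s T ∧ k ≤ T.card := by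
      intro k
      induction k with
      | zero => exact ⟨∅, ⟨by simp, by simp⟩, by simp⟩
      | succ k ih =>
        obtain ⟨T, hT, hk⟩ := ih
        obtain ⟨T', hT', hlt⟩ := hcon T hT
        exact ⟨T', hT', by omega⟩
    obtain ⟨T, hT, hk⟩ := this (B + 1)
    have := hbound T hT
    omega
  obtain ⟨T, hT, hmax⟩ := hmaxex
  exact ⟨T.card, hasCover_of_maximal hK hs hT hmax, hT.card_le hK hr hs⟩

end Packing

section PolarFacts


open Set Pointwise MeasureTheory Module

variable {E : Type*} [NormedAddCommGroup E] [InnerProductSpace ℝ E]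

theorem polar_antitone {A B : Set E} (h : A ⊆ B) : polar B ⊆ polar A :=
  fun _ hy x hx => hy x (h hx)

theorem zero_mem_polar (A : Set E) : (0 : E) ∈ polar A := by
  intro x _
  simp

theorem polar_smul {K : Set E} {s : ℝ} (hs : 0 < s) : polar (s • K) = s⁻¹ • polar K := by
  ext y
  rw [Set.mem_inv_smul_set_iff₀ hs.ne']
  constructor
  · intro hy x hx
    have := hy (s • x) ⟨x, hx, rfl⟩
    rwa [inner_smul_left, ← inner_smul_right] at this
  · rintro hy _ ⟨x, hx, rfl⟩
    have := hy x hx
    rw [inner_smul_left, ← inner_smul_right]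
    exact this

theorem IsSymBody.ball_subset {K : Set E} (hK : IsSymBody K) :
    ∃ ρ : ℝ, 0 < ρ ∧ Metric.ball (0 : E) ρ ⊆ K := by
  obtain ⟨x0, hx0⟩ := hK.inter
  rw [mem_interior_iff_mem_nhds, Metric.mem_nhds_iff] at hx0
  obtain ⟨ρ, hρ, hball⟩ := hx0
  refine ⟨ρ, hρ, fun z hz => ?_⟩
  rw [Metric.mem_ball, dist_zero_right] at hz
  have h1 : x0 + z ∈ K := hball (by simpa [Metric.mem_ball, dist_eq_norm] using hz)
  have h2 : x0 - z ∈ K := hball (by simpa [Metric.mem_ball, dist_eq_norm] using hz)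
  have h3 : -(x0 - z) ∈ K := hK.symm _ h2
  have := hK.convex h1 h3 (by norm_num : (0 : ℝ) ≤ 1 / 2)
    (by norm_num : (0 : ℝ) ≤ 1 / 2) (by norm_num)
  have h4 : (1 / 2 : ℝ) • (x0 + z) + (1 / 2 : ℝ) • -(x0 - z) = z := by
    rw [← smul_add]
    have : x0 + z + -(x0 - z) = (2 : ℝ) • z := by
      rw [two_smul]; abel
    rw [this, smul_smul]
    norm_num
  rwa [h4] at this

theorem isSymBody_polar [FiniteDimensional ℝ E] {K : Set E} (hK : IsSymBody K) :
    IsSymBody (polar K) := by
  obtain ⟨ρ, hρ, hball⟩ := hK.ball_subset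
  obtain ⟨R, hR⟩ := hK.compact.isBounded.subset_closedBall (0 : E)
  have hclosed : IsClosed (polar K) := by
    have : polar K = ⋂ x ∈ K, {y : E | inner ℝ x y ≤ 1} := by
      ext y
      simp [Vale.Agent.Results.P126.BoundedDistortion.polar]
    rw [this]
    exact isClosed_biInter fun x _ =>
      isClosed_le (continuous_const.inner continuous_id) continuous_const
  have hbdd : Bornology.IsBounded (polar K) := by
    refine (Metric.isBounded_closedBall (x := (0 : E)) (r := 2 / ρ)).subset ?_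
    intro y hy
    rw [Metric.mem_closedBall, dist_zero_right]
    by_cases hy0 : y = 0
    · rw [hy0, norm_zero]; positivity
    · have hn : 0 < ‖y‖ := norm_pos_iff.2 hy0
      have hx : (ρ / 2 / ‖y‖) • y ∈ K := by
        apply hball
        rw [Metric.mem_ball, dist_zero_right, norm_smul, Real.norm_eq_abs,
          abs_of_pos (by positivity), div_mul_cancel₀ _ hn.ne']
        linarith
      have := hy _ hx
      rw [inner_smul_left, real_inner_self_eq_norm_sq] at this
      simp only [conj_trivial] at this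
      have h5 : ρ / 2 / ‖y‖ * ‖y‖ ^ 2 = ρ / 2 * ‖y‖ := by
        field_simp
      rw [h5] at this
      rw [le_div_iff₀ hρ]
      linarith
  refine ⟨Metric.isCompact_of_isClosed_isBounded hclosed hbdd, ?_, ?_, ?_⟩
  · intro y1 hy1 y2 hy2 a b ha hb hab x hx
    rw [inner_add_right, inner_smul_right, inner_smul_right]
    have h1 := hy1 x hx
    have h2 := hy2 x hx
    calc a * inner ℝ x y1 + b * inner ℝ x y2 ≤ a * 1 + b * 1 := by gcongr
      _ = 1 := by linarith
  · refine ⟨0, ?_⟩
    rw [mem_interior_iff_mem_nhds]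
    have hR' : 0 < max R 1 := by positivity
    refine Filter.mem_of_superset (Metric.ball_mem_nhds (0 : E) (inv_pos.2 hR')) ?_
    intro y hy x hx
    rw [Metric.mem_ball, dist_zero_right] at hy
    have hxn : ‖x‖ ≤ max R 1 := by
      have := hR hx
      rw [Metric.mem_closedBall, dist_zero_right] at this
      exact this.trans (le_max_left _ _)
    calc inner ℝ x y ≤ ‖x‖ * ‖y‖ := real_inner_le_norm x y
      _ ≤ max R 1 * (max R 1)⁻¹ := by gcongr
      _ = 1 := mul_inv_cancel₀ hR'.ne'
  · intro y hy x hx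
    have := hy (-x) (hK.symm x hx)
    rwa [inner_neg_left, ← inner_neg_right] at this

end PolarFacts

section Duality


open Set Pointwise MeasureTheory Module

variable {E : Type*} [NormedAddCommGroup E] [InnerProductSpace ℝ E] [FiniteDimensional ℝ E]
  [MeasurableSpace E] [BorelSpace E]

/-- Duality of covering numbers for pairs at bounded homothetic distance (general space). -/
theorem duality_sandwich {K L : Set E} (hK : IsSymBody K) {t C : ℝ} (ht : 0 < t) (hC : 1 ≤ C)
    (h1 : t • K ⊆ L) (h2 : L ⊆ (C * t) • K) :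
    1 ≤ covNum (polar L) ((3 * C) • polar K) ∧
      covNum (polar L) ((3 * C) • polar K) ≤ covNum K L ∧
      covNum K L ≤ covNum (polar L) ((3 * C)⁻¹ • polar K) := by
  have hP : IsSymBody (polar K) := isSymBody_polar hK
  have hC0 : 0 < C := lt_of_lt_of_le zero_lt_one hC
  have hCt : 0 < C * t := mul_pos hC0 ht
  have h3C : 0 < 3 * C := by positivity
  have hL1 : polar L ⊆ t⁻¹ • polar K := by
    rw [← polar_smul ht]; exact polar_antitone h1
  have hL2 : (C * t)⁻¹ • polar K ⊆ polar L := by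
    rw [← polar_smul hCt]; exact polar_antitone h2
  have hK1 : (1 : ℝ) • K = K := one_smul ℝ K
  -- existence of finite covers
  have hcovKL : ∃ m, HasCover K L m := by
    obtain ⟨m, hm, _⟩ := exists_hasCover hK (r := 1) (s := t) zero_le_one ht
    exact ⟨m, hm.mono hK1.ge h1⟩
  have hcovA : ∃ m, HasCover (polar L) ((3 * C) • polar K) m := by
    obtain ⟨m, hm, _⟩ := exists_hasCover hP (r := t⁻¹) (s := 3 * C) (inv_nonneg.2 ht.le) h3C
    exact ⟨m, hm.mono hL1 subset_rfl⟩
  have hcovB : ∃ m, HasCover (polar L) ((3 * C)⁻¹ • polar K) m := by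
    obtain ⟨m, hm, _⟩ := exists_hasCover hP (r := t⁻¹) (s := (3 * C)⁻¹) (inv_nonneg.2 ht.le)
      (inv_pos.2 h3C)
    exact ⟨m, hm.mono hL1 subset_rfl⟩
  obtain ⟨mKL, hmKL⟩ := hcovKL
  obtain ⟨mA, hmA⟩ := hcovA
  obtain ⟨mB, hmB⟩ := hcovB
  have hposKL : 1 ≤ covNum K L := one_le_covNum hmKL hK.nonempty
  have hposB : 1 ≤ covNum (polar L) ((3 * C)⁻¹ • polar K) :=
    one_le_covNum hmB ⟨0, zero_mem_polar L⟩
  refine ⟨one_le_covNum hmA ⟨0, zero_mem_polar L⟩, ?_, ?_⟩
  · -- first inequality
    have hN : HasCover K L (covNum K L) := hasCover_covNum hmKL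
    by_cases h : t⁻¹ ≤ 3 * C
    · have hone := hasCover_one hP (r := t⁻¹) (s := 3 * C) (inv_nonneg.2 ht.le) h
      exact (covNum_le (hone.mono hL1 subset_rfl)).trans hposKL
    · push Not at h
      obtain ⟨m, hm, hmle⟩ := exists_hasCover hP (r := t⁻¹) (s := 3 * C) (inv_nonneg.2 ht.le) h3C
      have h3 : covNum (polar L) ((3 * C) • polar K) ≤ m := covNum_le (hm.mono hL1 subset_rfl)
      have h4 : (1 / (C * t)) ^ finrank ℝ E ≤ ((covNum K L : ℕ) : ℝ) :=
        le_of_hasCover hK zero_le_one hCt (hN.mono hK1.le h2)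
      have hu : 3 * C * t < 1 := by
        have := mul_lt_mul_of_pos_right h ht
        rwa [inv_mul_cancel₀ ht.ne'] at this
      have h5 : 1 + 2 * t⁻¹ / (3 * C) ≤ 1 / (C * t) := by
        have e1 : 1 + 2 * t⁻¹ / (3 * C) = (3 * C * t + 2) / (3 * C * t) := by
          field_simp
        have e2 : 1 / (C * t) = 3 / (3 * C * t) := by
          field_simp
        rw [e1, e2]
        gcongr
        linarith
      have h6 : (m : ℝ) ≤ ((covNum K L : ℕ) : ℝ) :=
        hmle.trans ((pow_le_pow_left₀ (by positivity) h5 _).trans h4)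
      have h7 : m ≤ covNum K L := by exact_mod_cast h6
      exact h3.trans h7
  · -- second inequality
    have hN : HasCover (polar L) ((3 * C)⁻¹ • polar K) (covNum (polar L) ((3 * C)⁻¹ • polar K)) :=
      hasCover_covNum hmB
    by_cases h : 1 ≤ t
    · have hone := hasCover_one hK (r := 1) (s := t) zero_le_one h
      exact (covNum_le (hone.mono hK1.ge h1)).trans hposB
    · push Not at h
      obtain ⟨m, hm, hmle⟩ := exists_hasCover hK (r := 1) (s := t) zero_le_one ht
      have h3 : covNum K L ≤ m := covNum_le (hm.mono hK1.ge h1)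
      have h4 : ((C * t)⁻¹ / (3 * C)⁻¹) ^ finrank ℝ E ≤
          ((covNum (polar L) ((3 * C)⁻¹ • polar K) : ℕ) : ℝ) :=
        le_of_hasCover hP (inv_nonneg.2 hCt.le) (inv_pos.2 h3C) (hN.mono hL2 subset_rfl)
      have h5 : 1 + 2 * 1 / t ≤ (C * t)⁻¹ / (3 * C)⁻¹ := by
        have e1 : 1 + 2 * 1 / t = (t + 2) / t := by
          field_simp
        have e2 : (C * t)⁻¹ / (3 * C)⁻¹ = 3 / t := by
          field_simp
        rw [e1, e2]
        gcongr
        linarith
      have h6 : (m : ℝ) ≤ ((covNum (polar L) ((3 * C)⁻¹ • polar K) : ℕ) : ℝ) :=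
        hmle.trans ((pow_le_pow_left₀ (by positivity) h5 _).trans h4)
      have h7 : m ≤ covNum (polar L) ((3 * C)⁻¹ • polar K) := by exact_mod_cast h6
      exact h3.trans h7

end Duality

open Pointwise in
/-- **Duality of metric entropy for pairs at bounded homothetic distance.**
Let `K` be an origin-symmetric convex body in `ℝⁿ`, and `L` any set with `t K ⊆ L ⊆ (C t) K`
where `t > 0` and `C ≥ 1`.  Then `1 ≤ N(L°, 3C K°) ≤ N(K, L) ≤ N(L°, (3C)⁻¹ K°)`, and hence
`log N(L°, 3C K°) ≤ log N(K, L) ≤ log N(L°, (3C)⁻¹ K°)`. -/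
theorem result (n : ℕ) (K L : Set (EuclideanSpace ℝ (Fin n))) (t C : ℝ)
    (hK : IsSymBody K) (ht : 0 < t) (hC : 1 ≤ C) (h1 : t • K ⊆ L) (h2 : L ⊆ (C * t) • K) :
    (1 ≤ covNum (polar L) ((3 * C) • polar K) ∧
      covNum (polar L) ((3 * C) • polar K) ≤ covNum K L ∧
      covNum K L ≤ covNum (polar L) ((3 * C)⁻¹ • polar K)) ∧
    (Real.log (covNum (polar L) ((3 * C) • polar K)) ≤ Real.log (covNum K L) ∧
      Real.log (covNum K L) ≤ Real.log (covNum (polar L) ((3 * C)⁻¹ • polar K))) := by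
  have h := duality_sandwich hK ht hC h1 h2
  refine ⟨h, ?_, ?_⟩
  · apply Real.log_le_log
    · exact_mod_cast h.1
    · exact_mod_cast h.2.1
  · apply Real.log_le_log
    · exact_mod_cast h.1.trans h.2.1
    · exact_mod_cast h.2.2

end Vale.Agent.Results.P126.BoundedDistortion
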