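import Vale.Agent.Results.P126.BoundedDistortion

/-!
# P126 (duality conjecture for metric entropy): bounded homothetic distance, in plain form

Let `K` be an origin-symmetric convex body in `ℝⁿ`, `t > 0`, `C ≥ 1`, and `L` a set with
`t K ⊆ L ⊆ (C t) K`.  Write `K° = {y : ⟪x, y⟫ ≤ 1 for all x ∈ K}` and likewise `L°`.  Then

1. `K` is covered by finitely many translates of `L`, and `L°` by finitely many translates of
   `(3C)⁻¹ K°`;
2. if `K` is covered by the translates `x + L`, `x ∈ T`, then `L°` is covered by at most `|T|`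
   translates of `(3C) K°`;
3. if `L°` is covered by the translates `z + (3C)⁻¹ K°`, `z ∈ T'`, then `K` is covered by at
   most `|T'|` translates of `L`.

This is the content of the hand-in `BoundedDistortion`
(`N(L°, 3C K°) ≤ N(K, L) ≤ N(L°, (3C)⁻¹ K°)`), with covering numbers and polars written out.
-/

namespace Vale.Agent.Results.P126.CoversOfPolars

open Pointwise Vale.Agent.Results.P126.BoundedDistortion

/-- A covering number that is at least one is attained by a cover. -/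
private lemma hasCover_of_one_le {E : Type*} [NormedAddCommGroup E] [InnerProductSpace ℝ E]
    {A B : Set E} (h : 1 ≤ covNum A B) : HasCover A B (covNum A B) := by
  have hne : {m : ℕ | HasCover A B m}.Nonempty := by
    by_contra hcon
    rw [Set.not_nonempty_iff_eq_empty] at hcon
    have h0 : covNum A B = 0 := by
      unfold covNum
      rw [hcon]
      exact Nat.sInf_empty
    omega
  exact Nat.sInf_mem hne

theorem result (n : ℕ) (K L : Set (EuclideanSpace ℝ (Fin n))) (t C : ℝ)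
    (hKc : IsCompact K) (hKv : Convex ℝ K) (hKi : (interior K).Nonempty)
    (hKs : ∀ x ∈ K, -x ∈ K) (ht : 0 < t) (hC : 1 ≤ C)
    (h1 : t • K ⊆ L) (h2 : L ⊆ (C * t) • K) :
    ((∃ T : Finset (EuclideanSpace ℝ (Fin n)), K ⊆ ⋃ x ∈ T, (x +ᵥ L)) ∧
      (∃ T' : Finset (EuclideanSpace ℝ (Fin n)),
        {y : EuclideanSpace ℝ (Fin n) | ∀ x ∈ L, inner ℝ x y ≤ 1} ⊆
          ⋃ z ∈ T', (z +ᵥ (3 * C)⁻¹ •
            {y : EuclideanSpace ℝ (Fin n) | ∀ x ∈ K, inner ℝ x y ≤ 1}))) ∧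
    (∀ T : Finset (EuclideanSpace ℝ (Fin n)), K ⊆ ⋃ x ∈ T, (x +ᵥ L) →
      ∃ T' : Finset (EuclideanSpace ℝ (Fin n)), T'.card ≤ T.card ∧
        {y : EuclideanSpace ℝ (Fin n) | ∀ x ∈ L, inner ℝ x y ≤ 1} ⊆
          ⋃ z ∈ T', (z +ᵥ (3 * C) •
            {y : EuclideanSpace ℝ (Fin n) | ∀ x ∈ K, inner ℝ x y ≤ 1})) ∧
    (∀ T' : Finset (EuclideanSpace ℝ (Fin n)),
      {y : EuclideanSpace ℝ (Fin n) | ∀ x ∈ L, inner ℝ x y ≤ 1} ⊆
        ⋃ z ∈ T', (z +ᵥ (3 * C)⁻¹ •
          {y : EuclideanSpace ℝ (Fin n) | ∀ x ∈ K, inner ℝ x y ≤ 1}) →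
      ∃ T : Finset (EuclideanSpace ℝ (Fin n)), T.card ≤ T'.card ∧ K ⊆ ⋃ x ∈ T, (x +ᵥ L)) := by
  have hK : IsSymBody K := ⟨hKc, hKv, hKi, hKs⟩
  obtain ⟨⟨ha, hb, hc⟩, -⟩ := BoundedDistortion.result n K L t C hK ht hC h1 h2
  -- the three covering numbers are attained
  have hcov1 : HasCover (polar L) ((3 * C) • polar K) (covNum (polar L) ((3 * C) • polar K)) :=
    hasCover_of_one_le ha
  have hcov2 : HasCover K L (covNum K L) := hasCover_of_one_le (ha.trans hb)
  have hcov3 : HasCover (polar L) ((3 * C)⁻¹ • polar K)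
      (covNum (polar L) ((3 * C)⁻¹ • polar K)) := hasCover_of_one_le ((ha.trans hb).trans hc)
  refine ⟨⟨?_, ?_⟩, ?_, ?_⟩
  · obtain ⟨T, -, hT⟩ := hcov2
    exact ⟨T, hT⟩
  · obtain ⟨T', -, hT'⟩ := hcov3
    exact ⟨T', hT'⟩
  · intro T hT
    have h3 : covNum K L ≤ T.card := covNum_le ⟨T, rfl, hT⟩
    obtain ⟨T', hcard, hT'⟩ := hcov1
    exact ⟨T', by omega, hT'⟩
  · intro T' hT'
    have h3 : covNum (polar L) ((3 * C)⁻¹ • polar K) ≤ T'.card := covNum_le ⟨T', rfl, hT'⟩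
    obtain ⟨T, hcard, hT⟩ := hcov2
    exact ⟨T, by omega, hT⟩

end Vale.Agent.Results.P126.CoversOfPolars
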